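import Mathlib

/-!
# P184 / reduction to a countable subgroup, modules R4, R5: countable subfields and embeddings into `ℂ`

FROZEN STATEMENTS (both proved, helper9).

ROUTE R4 (`exists_countable_descent`).  `T := {x | ∃ h i j, x = (ρ h : Matrix _ _ F) i j}` is countable (`Set.countable_range` of a function on `H × Fin n × Fin n`); `F₀ := Subfield.closure T` is countable
(search Mathlib; otherwise: `F₀` is contained in the range of `(p, r) ↦ aeval p / aeval r` on pairs of `MvPolynomial T ℤ`, a countable type; or use `IntermediateField.adjoin` over the prime field with its cardinality bound).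
`A h : Matrix (Fin n) (Fin n) F₀ := fun i j => ⟨ρ h i j, Subfield.subset_closure ⟨h, i, j, rfl⟩⟩`; `(A h).map F₀.subtype = ρ h`; `A (h * k) = A h * A k`, `A 1 = 1` by injectivity of `Matrix.map F₀.subtype` (`Matrix.map_injective`,
`Matrix.map_mul`); `ρ₀ h := ⟨A h, A h⁻¹, _, _⟩`.

ROUTE R5 (`exists_embedding_complex`).  Variant 1: `Ω := AlgebraicClosure (FractionRing (MvPolynomial ℝ E))` is algebraically closed of characteristic `0` with the cardinality of the continuum
(`≥`: the variables; `≤`: `MvPolynomial.cardinalMk_le_max`, `Cardinal.mk_fractionRing`/surjection from pairs, `Algebra.IsAlgebraic.cardinalMk_le_max`), so `IsAlgClosed.ringEquiv_of_equiv_of_charZero` gives `Ω ≃+* ℂ`; compose with `E → Ω`.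
(If `E` lives in a higher universe, first replace it by a copy in `Type` via `Countable`: `Shrink`/`Equiv.field`, or use the universe-polymorphic statement with `Cardinal.lift`.)
Variant 2: transcendence basis `b : ι → E` of `E` over `ℚ` (`ι` countable), a transcendence basis of `ℂ` over `ℚ` has the cardinality of the continuum (`IsAlgClosed.cardinal_eq_cardinal_transcendence_basis_of_aleph0_lt`), so there is an injection of `ι` into it, i.e.
an algebraically independent family `b' : ι → ℂ`; `MvPolynomial.aeval b'` is injective; `E` is algebraic over `Algebra.adjoin ℚ (range b) ≃ MvPolynomial ι ℚ`; `IsAlgClosed.lift`.  The private lemmas of `Tits/Complex.lean` (C1, helper4) do the same job.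
-/

namespace Vale.Agent.Lib.P184.Red

theorem exists_countable_descent {H : Type*} [Group H] [Countable H] {F : Type*} [Field F] {n : ℕ}
    (ρ : H →* Matrix.GeneralLinearGroup (Fin n) F) :
    ∃ (F₀ : Subfield F) (ρ₀ : H →* Matrix.GeneralLinearGroup (Fin n) F₀), Countable F₀ ∧
      ∀ h, (ρ₀ h : Matrix (Fin n) (Fin n) F₀).map F₀.subtype = (ρ h : Matrix (Fin n) (Fin n) F) := by
  classical
  let T : Set F := Set.range (fun p : H × Fin n × Fin n => (ρ p.1 : Matrix (Fin n) (Fin n) F) p.2.1 p.2.2)
  have hT : T.Countable := Set.countable_range _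
  let F₀ : Subfield F := Subfield.closure T
  have hF₀ : Countable F₀ := by
    rw [← Cardinal.mk_le_aleph0_iff]
    refine (Subfield.cardinalMk_closure_le_max T).trans ?_
    exact max_le (Cardinal.mk_le_aleph0_iff.mpr hT.to_subtype) le_rfl
  let A : H → Matrix (Fin n) (Fin n) F₀ := fun h i j =>
    ⟨(ρ h : Matrix (Fin n) (Fin n) F) i j, Subfield.subset_closure ⟨(h, i, j), rfl⟩⟩
  have hA : ∀ h, (A h).map F₀.subtype = (ρ h : Matrix (Fin n) (Fin n) F) := by
    intro h; ext i j; rfl
  have hinj : Function.Injective (fun M : Matrix (Fin n) (Fin n) F₀ => M.map F₀.subtype) :=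
    Matrix.map_injective F₀.subtype.injective
  have hmul : ∀ h k, A (h * k) = A h * A k := by
    intro h k
    apply hinj
    show (A (h * k)).map F₀.subtype = (A h * A k).map F₀.subtype
    rw [Matrix.map_mul, hA, hA, hA, map_mul]
    rfl
  have hone : A 1 = 1 := by
    apply hinj
    show (A 1).map F₀.subtype = (1 : Matrix (Fin n) (Fin n) F₀).map F₀.subtype
    rw [hA, map_one, Matrix.map_one _ (map_zero _) (map_one _)]
    rfl
  let ρ₀ : H →* Matrix.GeneralLinearGroup (Fin n) F₀ :=
    { toFun := fun h => ⟨A h, A h⁻¹, by rw [← hmul, mul_inv_cancel, hone],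
        by rw [← hmul, inv_mul_cancel, hone]⟩
      map_one' := Units.ext hone
      map_mul' := fun h k => Units.ext (hmul h k) }
  exact ⟨F₀, ρ₀, hF₀, hA⟩

private theorem exists_algHom_aux {K L M ι : Type*} [Field K] [Field L] [Field M] [IsAlgClosed M]
    [Algebra K L] [Algebra K M] (b : ι → L) (hb : IsTranscendenceBasis K b) (c : ι → M)
    (hc : AlgebraicIndependent K c) : Nonempty (L →ₐ[K] M) := by
  let A := Algebra.adjoin K (Set.range b)
  let ψ : A →ₐ[K] M := (MvPolynomial.aeval c).comp hb.1.aevalEquiv.symm.toAlgHom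
  have hψ : Function.Injective ψ := by
    have h1 : Function.Injective (MvPolynomial.aeval c : MvPolynomial ι K →ₐ[K] M) := hc
    exact h1.comp hb.1.aevalEquiv.symm.injective
  let _ : Algebra A M := ψ.toRingHom.toAlgebra
  have : IsScalarTower K A M := IsScalarTower.of_algebraMap_eq fun x => (ψ.commutes x).symm
  have : Algebra.IsAlgebraic A L := hb.isAlgebraic
  have : FaithfulSMul A M := (faithfulSMul_iff_algebraMap_injective A M).2 hψ
  let θ : L →ₐ[A] M := IsAlgClosed.lift
  exact ⟨θ.restrictScalars K⟩

theorem exists_embedding_complex (E : Type*) [Field E] [CharZero E] [Countable E] :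
    Nonempty (E →+* ℂ) := by
  obtain ⟨ι, b, hb⟩ := exists_isTranscendenceBasis' ℚ E
  obtain ⟨κ, c, hc⟩ := exists_isTranscendenceBasis' ℚ ℂ
  have hι : Countable ι := hb.1.injective.countable
  have hκ : Infinite κ := by
    have h1 : Cardinal.mk ℂ = Cardinal.mk κ :=
      IsAlgClosed.cardinal_eq_cardinal_transcendence_basis_of_aleph0_lt' c hc
        (Cardinal.mk_le_aleph0) (by rw [Cardinal.mk_complex]; exact Cardinal.aleph0_lt_continuum)
    rw [Cardinal.infinite_iff, ← h1, Cardinal.mk_complex]
    exact Cardinal.aleph0_le_continuum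
  obtain ⟨f, hf⟩ := exists_injective_nat ι
  let e : ι → κ := fun i => Infinite.natEmbedding κ (f i)
  have he : Function.Injective e := (Infinite.natEmbedding κ).injective.comp hf
  have hc' : AlgebraicIndependent ℚ (c ∘ e) := hc.1.comp e he
  obtain ⟨θ⟩ := exists_algHom_aux b hb (c ∘ e) hc'
  exact ⟨θ.toRingHom⟩

end Vale.Agent.Lib.P184.Red
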