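import Vale.Agent.Lib.P184.Red.Restrict
import Vale.Agent.Lib.P184.Red.Fields
import Vale.Agent.Lib.P184.Lin.Cplx
import Vale.Agent.Lib.P184.Lin.CharP

/-!
# P184 / linear groups over arbitrary fields, modules R6, R7

FROZEN STATEMENTS (both proved, helper9).

ROUTE R6 (`trace_vanish_of_charZero`).  `H` from `exists_countable_subgroup e hsum`; `ρH := ρ.comp H.subtype`; `F₀, ρ₀` from `exists_countable_descent ρH`; `j : F₀ →+* ℂ` from `exists_embedding_complex F₀`
(`CharZero F₀`: subfield of a field of characteristic zero, `charZero_of_injective_ringHom F₀.subtype.injective`); `ρ' := (Matrix.GeneralLinearGroup.map j).comp ρ₀ : H →* GL_n(ℂ)`.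
Apply `trace_of_res H e hsum hsupp (ConjClasses.mk g)`; for `x : H` with `(x : G)` conjugate to `g` apply
`Lin.trace_vanish_of_complex (res H e) (res_summable ..) (res_idem ..) ρ' x`.  The hypothesis: with `A := (ρ₀ x : Matrix _ _ F₀)`, `(ρ' x : Matrix _ _ ℂ) = A.map j`,
`((A.map j) ^ m - 1) ^ n = ((A ^ m - 1) ^ n).map j` (`RingHom.mapMatrix`, `map_pow`, `map_sub`), which is `≠ 0` iff `(A ^ m - 1) ^ n ≠ 0` (`Matrix.map_injective j.injective`), iff (same with `F₀.subtype`)
`((ρ x) ^ m - 1) ^ n ≠ 0`; and `ρ x = P * ρ g * P⁻¹` in `GL_n(F)` (`isConj_iff`, `ConjClasses.mem_carrier_iff_mk_eq`, `ConjClasses.mk_eq_mk_iff_isConj`), so `((ρ x) ^ m - 1) ^ n = P * ((ρ g) ^ m - 1) ^ n * P⁻¹ ≠ 0`.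

ROUTE R7 (`trace_vanish_of_field`).  `CharP.exists F` gives `p` with `CharP F p`; `CharP.char_is_prime_or_zero F p`.  If `p = 0`: `CharP.charP_to_charZero`, R6.  If `p` is prime: `Lin.trace_vanish_of_charP e hsum hidem p ρ g`, where
`ρ g ^ m = 1` would give `(ρ g : Matrix _ _ F) ^ m - 1 = 0`, so `(..) ^ n = 0` if `n > 0` (`zero_pow`), against `hg m hm`; if `n = 0` all matrices are equal (`Subsingleton`), so `hg 1 one_pos` is absurd.
-/

namespace Vale.Agent.Lib.P184.Red

open scoped BigOperators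

private theorem map_pow_sub_one_pow {R S : Type*} [Field R] [Field S] (j : R →+* S) {n : ℕ}
    (A : Matrix (Fin n) (Fin n) R) (m : ℕ) :
    ((A.map j) ^ m - 1) ^ n = ((A ^ m - 1) ^ n).map j := by
  show ((j.mapMatrix A) ^ m - 1) ^ n = j.mapMatrix ((A ^ m - 1) ^ n)
  rw [map_pow, map_sub, map_pow, map_one]

private theorem map_ne_zero {R S : Type*} [Field R] [Field S] (j : R →+* S) {n : ℕ}
    (B : Matrix (Fin n) (Fin n) R) : B.map j ≠ 0 ↔ B ≠ 0 := by
  constructor
  · rintro h rfl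
    apply h
    ext a b
    simp
  · intro h h0
    apply h
    apply Matrix.map_injective j.injective
    show B.map j = (0 : Matrix (Fin n) (Fin n) R).map j
    rw [h0]
    ext a b
    simp

private theorem conj_ne_zero {F : Type*} [Field F] {n : ℕ}
    (u X Y : Matrix.GeneralLinearGroup (Fin n) F) (h : u * X * u⁻¹ = Y) (m : ℕ)
    (hY : ((Y : Matrix (Fin n) (Fin n) F) ^ m - 1) ^ n ≠ 0) :
    ((X : Matrix (Fin n) (Fin n) F) ^ m - 1) ^ n ≠ 0 := by
  intro h0
  apply hY
  have h1 : (Y : Matrix (Fin n) (Fin n) F)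
      = (u : Matrix (Fin n) (Fin n) F) * (X : Matrix (Fin n) (Fin n) F)
        * ((u⁻¹ : Matrix.GeneralLinearGroup (Fin n) F) : Matrix (Fin n) (Fin n) F) := by
    rw [← h]; rfl
  have h2 : (Y : Matrix (Fin n) (Fin n) F) ^ m - 1
      = (u : Matrix (Fin n) (Fin n) F) * ((X : Matrix (Fin n) (Fin n) F) ^ m - 1)
        * ((u⁻¹ : Matrix.GeneralLinearGroup (Fin n) F) : Matrix (Fin n) (Fin n) F) := by
    rw [h1, Units.conj_pow, mul_sub, sub_mul, mul_one, Units.mul_inv]
  rw [h2, Units.conj_pow, h0, mul_zero, zero_mul]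

theorem trace_vanish_of_charZero {G : Type*} [Group G] {q : ℕ} (e : Matrix (Fin q) (Fin q) (G → ℂ))
    (hsum : ∀ i j, Summable fun g => ‖e i j g‖)
    (hidem : ∀ i j g, ∑ k, ∑' h, e i k h * e k j (h⁻¹ * g) = e i j g)
    {F : Type*} [Field F] [CharZero F] {n : ℕ} (ρ : G →* Matrix.GeneralLinearGroup (Fin n) F) (g : G)
    (hg : ∀ m : ℕ, 0 < m → ((ρ g : Matrix (Fin n) (Fin n) F) ^ m - 1) ^ n ≠ 0) :
    ∑' x : (ConjClasses.mk g).carrier, ∑ i, e i i x = 0 := by
  obtain ⟨H, hHc, hsupp⟩ := exists_countable_subgroup e hsum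
  obtain ⟨F₀, ρ₀, hF₀, hρ₀⟩ := exists_countable_descent (ρ.comp H.subtype)
  have hchar : CharZero F₀ := ⟨fun a b h => by
    have h' := congrArg F₀.subtype h
    simpa using h'⟩
  obtain ⟨j⟩ := exists_embedding_complex F₀
  refine trace_of_res H e hsum hsupp (ConjClasses.mk g) ?_
  intro x hx
  refine Lin.trace_vanish_of_complex (res H e) (res_summable H e hsum) (res_idem H e hidem hsupp)
    ((Matrix.GeneralLinearGroup.map j).comp ρ₀) x ?_
  intro m hm
  have hconj : IsConj (x : G) g :=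
    ConjClasses.mk_eq_mk_iff_isConj.mp (ConjClasses.mem_carrier_iff_mk_eq.mp hx)
  obtain ⟨c, hc⟩ := isConj_iff.mp hconj
  have h1 : ρ c * ρ (x : G) * (ρ c)⁻¹ = ρ g := by
    rw [← map_inv, ← map_mul, ← map_mul, hc]
  have h2 := conj_ne_zero (ρ c) (ρ (x : G)) (ρ g) h1 m (hg m hm)
  have h3 : (ρ (x : G) : Matrix (Fin n) (Fin n) F)
      = (ρ₀ x : Matrix (Fin n) (Fin n) F₀).map F₀.subtype := (hρ₀ x).symm
  rw [h3, map_pow_sub_one_pow, map_ne_zero] at h2
  have h4 : ((((Matrix.GeneralLinearGroup.map j).comp ρ₀) x :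
      Matrix.GeneralLinearGroup (Fin n) ℂ) : Matrix (Fin n) (Fin n) ℂ)
      = (ρ₀ x : Matrix (Fin n) (Fin n) F₀).map j := rfl
  rw [h4, map_pow_sub_one_pow, map_ne_zero]
  exact h2

/-- Linear representations over an arbitrary field: the coefficient vanishes at every element whose image is not quasi-unipotent. -/
theorem trace_vanish_of_field {G : Type*} [Group G] {q : ℕ} (e : Matrix (Fin q) (Fin q) (G → ℂ))
    (hsum : ∀ i j, Summable fun g => ‖e i j g‖)
    (hidem : ∀ i j g, ∑ k, ∑' h, e i k h * e k j (h⁻¹ * g) = e i j g)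
    {F : Type*} [Field F] {n : ℕ} (ρ : G →* Matrix.GeneralLinearGroup (Fin n) F) (g : G)
    (hg : ∀ m : ℕ, 0 < m → ((ρ g : Matrix (Fin n) (Fin n) F) ^ m - 1) ^ n ≠ 0) :
    ∑' x : (ConjClasses.mk g).carrier, ∑ i, e i i x = 0 := by
  obtain ⟨p, hp⟩ := CharP.exists F
  rcases CharP.char_is_prime_or_zero F p with hpp | hp0
  · have : Fact p.Prime := ⟨hpp⟩
    refine Lin.trace_vanish_of_charP e hsum hidem p ρ g ?_
    intro m hm h1
    have h2 : (ρ g : Matrix (Fin n) (Fin n) F) ^ m = 1 := by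
      rw [← Units.val_pow_eq_pow_val, h1, Units.val_one]
    rcases Nat.eq_zero_or_pos n with hn | hn
    · subst hn
      exact hg 1 one_pos (Subsingleton.elim _ _)
    · apply hg m hm
      rw [h2, sub_self, zero_pow hn.ne']
  · subst hp0
    have : CharZero F := CharP.charP_to_charZero F
    exact trace_vanish_of_charZero e hsum hidem ρ g hg

end Vale.Agent.Lib.P184.Red
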