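import Mathlib

/-!
# P184 / reduction to a countable subgroup, modules R1, R2, R3

FROZEN STATEMENTS (all proved, helper9).

`e` is a `q × q` matrix of absolutely summable functions on `G`, supported in a subgroup `H`; `res H e` is its restriction to `H`.

ROUTE R1.  `res_summable`: `Summable.comp_injective` (`Subtype.val_injective`).
`res_idem`: for `g : H` the function `h ↦ e i k h * e k j (h⁻¹ * g)` on `G` vanishes off `H`, so `∑' h : G, .. = ∑' h : H, ..`
(`tsum_subtype_eq_of_support_subset`, or `Function.Injective.tsum_eq Subtype.val_injective` with the support inside the range).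

ROUTE R2 (`trace_of_res`).  `f x := ∑ i, e i i x` is summable on `G` (finite sum of summable functions; norm-summable implies summable in `ℂ`) and vanishes off `H`.
(a) `∑' x : C.carrier, f x = ∑' y : {y : H // (y : G) ∈ C.carrier}, f y` (the map `y ↦ ⟨y, _⟩` is injective and its range contains the support).
(b) split `S := {y : H // (y : G) ∈ C.carrier}` along `y ↦ ConjClasses.mk (y : H)`: `HasSum.tsum_fiberwise` / `Summable.tsum_sigma'` / `tsum_sigma'` with `Equiv.sigmaFiberEquiv`.
(c) a nonempty fibre over `D = ConjClasses.mk x`, `x ∈ S`, is in bijection with `D.carrier` (elements `H`-conjugate to `x` are `G`-conjugate to `x`, so they are in `C`), so the inner sum is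
`∑' y : (ConjClasses.mk x).carrier, ∑ i, res H e i i y = 0` by `h0`; an empty fibre gives `0`.

ROUTE R3 (`exists_countable_subgroup`).  `Summable.countable_support` for each `fun g => ‖e i j g‖`; `T := ⋃ i j, Function.support (e i j)` is countable; `H := Subgroup.closure T` is countable
(search Mathlib for the countability of `Subgroup.closure` of a countable set; otherwise: `H` is the range of `FreeGroup.lift` on the countable type `FreeGroup T`, or of the product map on lists of `T ∪ T⁻¹`).
-/

namespace Vale.Agent.Lib.P184.Red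

open scoped BigOperators

variable {G : Type*} [Group G]

/-- restriction to a subgroup -/
def res (H : Subgroup G) {q : ℕ} (e : Matrix (Fin q) (Fin q) (G → ℂ)) :
    Matrix (Fin q) (Fin q) (H → ℂ) := fun i j h => e i j h

theorem res_summable (H : Subgroup G) {q : ℕ} (e : Matrix (Fin q) (Fin q) (G → ℂ))
    (hsum : ∀ i j, Summable fun g => ‖e i j g‖) : ∀ i j, Summable fun h : H => ‖res H e i j h‖ := by
  intro i j
  exact (hsum i j).comp_injective Subtype.val_injective

theorem res_idem (H : Subgroup G) {q : ℕ} (e : Matrix (Fin q) (Fin q) (G → ℂ))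
    (hidem : ∀ i j g, ∑ k, ∑' h, e i k h * e k j (h⁻¹ * g) = e i j g)
    (hsupp : ∀ i j x, x ∉ H → e i j x = 0) :
    ∀ i j (g : H), ∑ k, ∑' h : H, res H e i k h * res H e k j (h⁻¹ * g) = res H e i j g := by
  intro i j g
  show ∑ k, ∑' h : H, e i k (h : G) * e k j ((h : G)⁻¹ * (g : G)) = e i j (g : G)
  rw [← hidem i j g]
  refine Finset.sum_congr rfl fun k _ => ?_
  refine Function.Injective.tsum_eq Subtype.val_injective
    (f := fun h : G => e i k h * e k j (h⁻¹ * (g : G))) ?_
  intro x hx
  by_contra hne
  apply hx
  have hxH : x ∉ H := fun h => hne ⟨⟨x, h⟩, rfl⟩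
  show e i k x * e k j (x⁻¹ * (g : G)) = 0
  rw [hsupp i k x hxH, zero_mul]

private theorem mem_carrier_iff_of_mk_eq (H : Subgroup G) (C : ConjClasses G) (b x : H)
    (h : ConjClasses.mk b = ConjClasses.mk x) : (b : G) ∈ C.carrier ↔ (x : G) ∈ C.carrier := by
  have h1 : IsConj b x := ConjClasses.mk_eq_mk_iff_isConj.mp h
  have h2 : IsConj (b : G) (x : G) := H.subtype.map_isConj h1
  have h3 : ConjClasses.mk (b : G) = ConjClasses.mk (x : G) := ConjClasses.mk_eq_mk_iff_isConj.mpr h2
  rw [ConjClasses.mem_carrier_iff_mk_eq, ConjClasses.mem_carrier_iff_mk_eq, h3]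

theorem trace_of_res (H : Subgroup G) {q : ℕ} (e : Matrix (Fin q) (Fin q) (G → ℂ))
    (hsum : ∀ i j, Summable fun g => ‖e i j g‖) (hsupp : ∀ i j x, x ∉ H → e i j x = 0)
    (C : ConjClasses G)
    (h0 : ∀ x : H, (x : G) ∈ C.carrier →
      ∑' y : (ConjClasses.mk x).carrier, ∑ i, res H e i i y = 0) :
    ∑' x : C.carrier, ∑ i, e i i x = 0 := by
  classical
  set f : G → ℂ := fun x => ∑ i, e i i x with hf
  have hfs : Summable f := summable_sum fun i _ => (hsum i i).of_norm
  have hf0 : ∀ x, x ∉ H → f x = 0 := fun x hx =>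
    Finset.sum_eq_zero fun i _ => hsupp i i x hx
  set F : H → ℂ := fun y => C.carrier.indicator f (y : G) with hF
  have hFs : Summable F := (hfs.indicator _).comp_injective Subtype.val_injective
  have h1 : ∑' x : C.carrier, f x = ∑' x : G, C.carrier.indicator f x := tsum_subtype _ _
  have h2 : ∑' y : H, F y = ∑' x : G, C.carrier.indicator f x := by
    refine Function.Injective.tsum_eq Subtype.val_injective (f := C.carrier.indicator f) ?_
    intro x hx
    by_contra hne
    apply hx
    have hxH : x ∉ H := fun h => hne ⟨⟨x, h⟩, rfl⟩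
    by_cases hxC : x ∈ C.carrier
    · rw [Set.indicator_of_mem hxC]; exact hf0 x hxH
    · exact Set.indicator_of_notMem hxC _
  have h3 := hFs.hasSum.tsum_fiberwise (ConjClasses.mk : H → ConjClasses H)
  have h4 : ∀ D : ConjClasses H, ∑' b : (ConjClasses.mk : H → ConjClasses H) ⁻¹' {D}, F b = 0 := by
    intro D
    obtain ⟨x, rfl⟩ := ConjClasses.exists_rep D
    have hset : (ConjClasses.mk : H → ConjClasses H) ⁻¹' {ConjClasses.mk x}
        = (ConjClasses.mk x).carrier := by
      ext b
      rw [ConjClasses.mem_carrier_iff_mk_eq]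
      rfl
    rw [hset]
    by_cases hx : (x : G) ∈ C.carrier
    · rw [← h0 x hx]
      refine tsum_congr fun b => ?_
      have hb : ((b : H) : G) ∈ C.carrier :=
        (mem_carrier_iff_of_mk_eq H C b x (ConjClasses.mem_carrier_iff_mk_eq.mp b.2)).mpr hx
      show C.carrier.indicator f ((b : H) : G) = _
      rw [Set.indicator_of_mem hb]
      rfl
    · have : ∀ b : (ConjClasses.mk x).carrier, F b = 0 := by
        intro b
        have hb : ((b : H) : G) ∉ C.carrier := fun h =>
          hx ((mem_carrier_iff_of_mk_eq H C b x (ConjClasses.mem_carrier_iff_mk_eq.mp b.2)).mp h)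
        exact Set.indicator_of_notMem hb _
      simp only [this, tsum_zero]
  have h5 : ∑' y : H, F y = 0 := by
    have h6 := h3.tsum_eq
    simp only [h4, tsum_zero] at h6
    exact h6.symm
  show ∑' x : C.carrier, f x = 0
  rw [h1, ← h2, h5]

theorem exists_countable_subgroup {q : ℕ} (e : Matrix (Fin q) (Fin q) (G → ℂ))
    (hsum : ∀ i j, Summable fun g => ‖e i j g‖) :
    ∃ H : Subgroup G, Countable H ∧ ∀ i j x, x ∉ H → e i j x = 0 := by
  classical
  let T : Set G := ⋃ i, ⋃ j, Function.support (e i j)
  have hT : T.Countable := by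
    refine Set.countable_iUnion fun i => Set.countable_iUnion fun j => ?_
    have h1 := (hsum i j).countable_support
    have h2 : Function.support (fun g => ‖e i j g‖) = Function.support (e i j) := by
      ext g; simp
    rwa [h2] at h1
  refine ⟨Subgroup.closure T, ?_, ?_⟩
  · have : Countable T := hT.to_subtype
    rw [FreeGroup.closure_eq_range]
    exact (Set.countable_range (FreeGroup.lift ((↑) : T → G))).to_subtype
  · intro i j x hx
    by_contra hne
    exact hx (Subgroup.subset_closure (Set.mem_iUnion.mpr ⟨i, Set.mem_iUnion.mpr ⟨j, hne⟩⟩))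

end Vale.Agent.Lib.P184.Red
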